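import Vale.Agent.Lib.P327.Pettis
import Vale.Agent.Lib.P327.Iter
import Vale.Agent.Lib.P327.Comeager

/-!
Rigidity of the Turing degrees: automorphisms induced by Baire additive bijections or by bounded
degree polynomial bijections of Cantor space are the identity, and rigidity reduces to comeager
sets of reals.
-/

namespace Vale.Agent.Results.P327.A00_master

open Vale.Agent.Lib.P327

/-- Three rigidity statements for order automorphisms `π` of the Turing degrees: (1) induced by a
bijection of Cantor space additive for pointwise exclusive or with coordinate sets having the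
property of Baire, `π` is the identity; (2) induced by a bijection whose coordinates and inverse's
coordinates are polynomials of bounded degree over the field with two elements, `π` is the
identity; (3) for a comeager set `C` of reals, `π (deg x) ≤ deg x` on `C` implies it everywhere,
and if `π` fixes `deg x` on `C` then `π` is the identity. -/
theorem result :
    (∀ (π : TDeg ≃o TDeg) (F : (ℕ → Bool) ≃ (ℕ → Bool)),
      (∀ x y n, F (fun i => xor (x i) (y i)) n = xor (F x n) (F y n)) →
      (∀ n, BaireMeasurableSet {x | F x n = true}) →
      (∀ x, π (deg x) = deg (F x)) → π = OrderIso.refl TDeg) ∧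
    (∀ (π : TDeg ≃o TDeg) (F : (ℕ → Bool) ≃ (ℕ → Bool)) (d : ℕ),
      (∀ n, PolyDeg d fun x => F x n) → (∀ n, PolyDeg d fun x => F.symm x n) →
      (∀ x, π (deg x) = deg (F x)) → π = OrderIso.refl TDeg) ∧
    (∀ (π : TDeg ≃o TDeg) (C : Set (ℕ → Bool)), C ∈ residual (ℕ → Bool) →
      ((∀ x ∈ C, π (deg x) ≤ deg x) → ∀ x, π (deg x) ≤ deg x) ∧
      ((∀ x ∈ C, π (deg x) = deg x) → π = OrderIso.refl TDeg)) :=
  ⟨fun π F hF hm hπ => main_baire π F hF hm hπ,
    fun π F d hF hF' hπ => main_poly π F d hF hF' hπ,
    fun π _ hC => ⟨fun h => le_of_comeager π hC h, fun h => main_comeager π hC h⟩⟩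

end Vale.Agent.Results.P327.A00_master
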