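import Vale.Agent.Lib.P327.Pettis

/-!
Every automorphism of the Turing degrees induced by an additive bijection of Cantor space with
the property of Baire (no continuity assumed) is the identity.
-/

namespace Vale.Agent.Results.P327.A0_additive

open Vale.Agent.Lib.P327

/-- An order automorphism of the Turing degrees induced by a bijection of Cantor space that is
additive for pointwise exclusive or and has coordinate sets with the property of Baire is the
identity. -/
theorem result (π : TDeg ≃o TDeg) (F : (ℕ → Bool) ≃ (ℕ → Bool))
    (hF : ∀ x y n, F (fun i => xor (x i) (y i)) n = xor (F x n) (F y n))
    (hm : ∀ n, BaireMeasurableSet {x | F x n = true})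
    (hπ : ∀ x, π (deg x) = deg (F x)) : π = OrderIso.refl TDeg :=
  main_baire π F hF hm hπ

end Vale.Agent.Results.P327.A0_additive
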