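import Vale.Agent.Lib.P327.Comeager

/-!
An automorphism of the Turing degrees fixing the degrees of comeager many reals is the identity.
-/

namespace Vale.Agent.Results.P327.B_comeager

open Vale.Agent.Lib.P327

/-- For an order automorphism `π` of the Turing degrees and a comeager set `C` of reals: if
`π (deg x) ≤ deg x` on `C` then this holds for all reals, and if `π` fixes `deg x` for all `x`
in `C` then `π` is the identity. -/
theorem result (π : TDeg ≃o TDeg) (C : Set (ℕ → Bool)) (hC : C ∈ residual (ℕ → Bool)) :
    ((∀ x ∈ C, π (deg x) ≤ deg x) → ∀ x, π (deg x) ≤ deg x) ∧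
      ((∀ x ∈ C, π (deg x) = deg x) → π = OrderIso.refl TDeg) :=
  ⟨fun h => le_of_comeager π hC h, fun h => main_comeager π hC h⟩

end Vale.Agent.Results.P327.B_comeager
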