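import Vale.Agent.Lib.P327.Iter

/-!
Every automorphism of the Turing degrees induced by a bijection of Cantor space such that the
bijection and its inverse are polynomial of uniformly bounded degree over the field with two
elements is the identity.
-/

namespace Vale.Agent.Results.P327.C_poly

open Vale.Agent.Lib.P327

/-- An order automorphism of the Turing degrees induced by a bijection of Cantor space, all of
whose coordinates and all of whose inverse's coordinates are polynomials of total degree at most
`d` over the field with two elements, is the identity. -/
theorem result (π : TDeg ≃o TDeg) (F : (ℕ → Bool) ≃ (ℕ → Bool)) (d : ℕ)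
    (hF : ∀ n, PolyDeg d fun x => F x n) (hF' : ∀ n, PolyDeg d fun x => F.symm x n)
    (hπ : ∀ x, π (deg x) = deg (F x)) : π = OrderIso.refl TDeg :=
  main_poly π F d hF hF' hπ

end Vale.Agent.Results.P327.C_poly
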